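import Vale.Agent.P088.R2.H867.VMod

/-!
# P088, boundary quasimodes for pairs: normalised derivatives and pointwise bounds
-/

open MeasureTheory Set Filter Topology
open scoped ContDiff Matrix

noncomputable section

namespace Vale.Agent.P088.R2.H867

open Vale.Agent.P088.LR Vale.Agent.P088.LR.B Vale.Agent.P088.LR.H705 Vale.Agent.P088.R2.H381
open Vale.Agent.P088.LR.U (lav)

variable {n N : ℕ}

/-- `u` or `c^{-1} ∂_a u`. -/
def nf (c : ℂ) (o : Option (Fin n)) (u : V n → ℂ) : V n → ℂ :=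
  match o with
  | none => u
  | some a => fun x => c⁻¹ * pd a u x

/-- The symbol of `nf`: `1` or `∂_a Θ`. -/
def zz (Θ : V n → ℂ) (o : Option (Fin n)) : V n → ℂ :=
  match o with
  | none => fun _ => 1
  | some a => pd a Θ

/-- `nf` on families. -/
def nd (o : Option (Fin n)) (W : ℕ → V n → ℂ) : ℕ → V n → ℂ := fun M => nf (lm M) o (W M)

theorem zz_contDiff {Θ : V n → ℂ} (hΘ : ContDiff ℝ ∞ Θ) (o : Option (Fin n)) :
    ContDiff ℝ ∞ (zz Θ o) := by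
  cases o with
  | none => exact contDiff_const
  | some a => exact contDiff_pd hΘ a

theorem nf_contDiff {u : V n → ℂ} (hu : ContDiff ℝ ∞ u) (c : ℂ) (o : Option (Fin n)) :
    ContDiff ℝ ∞ (nf c o u) := by
  cases o with
  | none => exact hu
  | some a => exact contDiff_const.mul (contDiff_pd hu a)

theorem nd_mem {Θ r : V n → ℂ} (hΘ : ContDiff ℝ ∞ Θ) (hr : ContDiff ℝ ∞ r) {S : Set (V n)}
    (hS : IsClosed S) {q : ℕ} {W : ℕ → V n → ℂ} (hW : W ∈ Mo Θ r S q) (o : Option (Fin n)) :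
    nd o W ∈ Mo Θ r S q := by
  cases o with
  | none => exact hW
  | some a =>
    have e : nd (some a) W = fun M => pd a (dn W M) := by
      funext M x
      exact (pd_cmul (Mo_Sp hΘ hr hW M).1 _ a x).symm
    rw [e]
    exact Mo_pd hS hΘ hr a (Mo_dn hW)

theorem nd_sub {Θ r : V n → ℂ} (hΘ : ContDiff ℝ ∞ Θ) (hr : ContDiff ℝ ∞ r) {S : Set (V n)}
    {q q' : ℕ} {W W' : ℕ → V n → ℂ} (hW : W ∈ Mo Θ r S q) (hW' : W' ∈ Mo Θ r S q')
    (o : Option (Fin n)) : nd o (W - W') = nd o W - nd o W' := by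
  cases o with
  | none => rfl
  | some a =>
    funext M x
    show (lm M)⁻¹ * pd a (fun y => W M y - W' M y) x =
      (lm M)⁻¹ * pd a (W M) x - (lm M)⁻¹ * pd a (W' M) x
    rw [H158.pd_sub (H158.dfa (Mo_Sp hΘ hr hW M).1 x) (H158.dfa (Mo_Sp hΘ hr hW' M).1 x)]
    ring

/-- The leading term of the normalised derivative. -/
theorem nd_lead {Θ r : V n → ℂ} (hΘ : ContDiff ℝ ∞ Θ) (hr : ContDiff ℝ ∞ r) {S : Set (V n)}
    (hS : IsClosed S) {f : V n → ℂ} (hf : Sp S f) {W : ℕ → V n → ℂ} (hW0 : W ∈ Mo Θ r S 0)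
    (hW : W - gen Θ r 0 0 f ∈ Mo Θ r S 1) (o : Option (Fin n)) :
    nd o W - gen Θ r 0 0 (fun x => zz Θ o x * f x) ∈ Mo Θ r S 1 := by
  cases o with
  | none =>
    have e : (fun x => zz Θ none x * f x) = f := by
      funext x
      simp [zz]
    rw [e]
    exact hW
  | some a =>
    have hgm : gen Θ r 0 0 f ∈ Mo Θ r S 0 := gen_mem le_rfl hf
    have e : nd (some a) W - gen Θ r 0 0 (fun x => zz Θ (some a) x * f x) =
        nd (some a) (W - gen Θ r 0 0 f) + gen Θ r 1 0 (pd a f) := by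
      rw [nd_sub hΘ hr hW0 hgm]
      funext M x
      have h1 : nd (some a) (gen Θ r 0 0 f) M x = gen Θ r 0 0 (fun x => zz Θ (some a) x * f x) M x +
          gen Θ r 1 0 (pd a f) M x := by
        show (lm M)⁻¹ * pd a (gen Θ r 0 0 f M) x = _
        rw [pd_gen hΘ hr hf.1]
        simp only [gen, zz]
        have hu : lm M * (lm M)⁻¹ = 1 := mul_inv_cancel₀ (lm_ne M)
        simp
        linear_combination (Complex.exp (lm M * Θ x) * (pd a Θ x * f x)) * hu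
      simp only [Pi.sub_apply, Pi.add_apply, h1]
      ring
    rw [e]
    exact Submodule.add_mem _ (nd_mem hΘ hr hS hW _) (gen_mem (by omega) (Sp_pd hS hf a))

/-- Bounds for finitely many members of `Mo`. -/
theorem Mo_bdF {ι : Type*} [Fintype ι] {S : Set (V n)} (hS : IsCompact S) {Θ : V n → ℂ}
    {ρ : V n → ℝ} {q : ℕ} {W : ι → ℕ → V n → ℂ} (hW : ∀ i, W i ∈ Mo Θ (cx ρ) S q) :
    ∃ (C : ℝ) (L : ℕ), 0 ≤ C ∧ ∀ i M x, ‖W i M x‖ ≤ C * (((M : ℝ) + 1)⁻¹) ^ q *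
      (1 + ((M : ℝ) + 1) * |ρ x|) ^ L * ‖Complex.exp (lm M * Θ x)‖ := by
  choose C L hC hb using fun i => Mo_bd hS (hW i)
  have h0 : 0 ≤ ∑ i, C i := Finset.sum_nonneg fun i _ => hC i
  have h1 : ∀ i, C i ≤ ∑ i, C i := fun i =>
    Finset.single_le_sum (f := C) (fun b _ => hC b) (Finset.mem_univ i)
  generalize ∑ i, C i = D at h0 h1
  refine ⟨D, ∑ i, L i, h0, fun i M x => ?_⟩
  have h1 := h1 i
  have h2 : L i ≤ ∑ i, L i :=
    Finset.single_le_sum (f := L) (fun b _ => Nat.zero_le _) (Finset.mem_univ i)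
  have h3 : (1 : ℝ) ≤ 1 + ((M : ℝ) + 1) * |ρ x| := by
    have : 0 ≤ ((M : ℝ) + 1) * |ρ x| := by positivity
    linarith
  have h4 := pow_le_pow_right₀ h3 h2
  have h5 := hC i
  refine (hb i M x).trans ?_
  gcongr

/-- The indices: two normalised derivatives and a component. -/
abbrev Id (n N : ℕ) := Option (Fin n) × Option (Fin n) × Fin N

/-- `c D D' U_l` with the normalised derivatives `D`, `D'`. -/
def Xi (c : ℂ) (U : V n → Fin N → ℂ) (i : Id n N) : V n → ℂ :=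
  fun x => c * nf c i.1 (nf c i.2.1 (fun y => U y i.2.2)) x

/-- The symbol of `Xi`. -/
def sy (Θ : V n → ℂ) (η : Fin N → ℂ) (i : Id n N) : V n → ℂ :=
  fun x => zz Θ i.1 x * (zz Θ i.2.1 x * η i.2.2)

/-- The quasimodes with pointwise bounds. -/
theorem quasiV_bd {s : MF n} (hs : SmM s) (hsym : ∀ x, (s x).IsSymm) {A : Cn n N} (hA : SmU A)
    {S : Set (V n)} (hS : IsCompact S) {Θ e g : V n → ℂ} {ρ : V n → ℝ}
    (h : Ph s Θ (cx ρ) S e g) {χ : V n → ℂ} (hχ : Sp S χ) (η : Fin N → ℂ) (K : ℕ) :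
    ∃ (U : ℕ → V n → Fin N → ℂ) (C : ℝ) (L : ℕ), 0 ≤ C ∧ (∀ M, ContDiff ℝ ∞ (U M)) ∧
      (∀ M, ∀ x ∉ S, U M x = 0) ∧
      (∀ M : ℕ, 1 ≤ M → ∀ i x, ‖Xi (M : ℂ) (U M) i x -
        M * sy Θ η i x * Complex.exp (M * Θ x) * χ x‖ ≤
        C * (1 + M * |ρ x|) ^ L * ‖Complex.exp (M * Θ x)‖) ∧
      ∀ M : ℕ, 1 ≤ M → ∀ l x, ‖lav s A (U M) x l‖ ≤
        C * ((M : ℝ)⁻¹) ^ K * (1 + M * |ρ x|) ^ L * ‖Complex.exp (M * Θ x)‖ := by
  have hχη : ∀ l, Sp S (fun x => η l * χ x) := fun l => Sp_mul_left contDiff_const hχ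
  obtain ⟨W, hW1, hW0, hWL⟩ := quasiV hs hsym hA hS.isClosed h hχη (K + 1)
  have hR : ∀ i : Id n N, nd i.1 (nd i.2.1 (W i.2.2)) - gen Θ (cx ρ) 0 0
      (fun x => zz Θ i.1 x * (zz Θ i.2.1 x * (η i.2.2 * χ x))) ∈ Mo Θ (cx ρ) S 1 := by
    intro i
    have h1 := nd_lead h.hΘ h.hr hS.isClosed (hχη i.2.2) (hW0 i.2.2) (hW1 i.2.2) i.2.1
    have h2 := nd_mem h.hΘ h.hr hS.isClosed (hW0 i.2.2) i.2.1
    exact nd_lead h.hΘ h.hr hS.isClosed (Sp_mul_left (zz_contDiff h.hΘ i.2.1) (hχη i.2.2)) h2 h1 i.1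
  obtain ⟨C₁, L₁, hC₁, hb₁⟩ := Mo_bdF hS hR
  obtain ⟨C₂, L₂, hC₂, hb₂⟩ := Mo_bdF hS hWL
  have hUs : ∀ M, ContDiff ℝ ∞ (vec W M) := vec_contDiff h.hΘ h.hr hW0
  refine ⟨fun M => vec W (M - 1), C₁ + C₂, L₁ + L₂, by positivity, fun M => hUs _,
    fun M x hx => ?_, ?_, ?_⟩
  · funext l
    exact (Mo_Sp h.hΘ h.hr (hW0 l) _).2 x hx
  · intro M hM i x
    obtain ⟨M, rfl⟩ : ∃ M', M = M' + 1 := ⟨M - 1, by omega⟩
    have h2 : ((M + 1 : ℕ) : ℂ) = lm M := by unfold lm; push_cast; rfl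
    rw [h2]
    simp only [Nat.add_sub_cancel]
    have h3 : (1 : ℝ) ≤ 1 + ((M : ℝ) + 1) * |ρ x| := by
      have : 0 ≤ ((M : ℝ) + 1) * |ρ x| := by positivity
      linarith
    have h4 := pow_le_pow_right₀ h3 (Nat.le_add_right L₁ L₂)
    have hM0 : (0 : ℝ) < (M : ℝ) + 1 := by positivity
    have e1 : Xi (lm M) (vec W M) i x - lm M * sy Θ η i x * Complex.exp (lm M * Θ x) * χ x =
        lm M * (nd i.1 (nd i.2.1 (W i.2.2)) - gen Θ (cx ρ) 0 0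
          (fun x => zz Θ i.1 x * (zz Θ i.2.1 x * (η i.2.2 * χ x)))) M x := by
      simp only [Pi.sub_apply, gen, sy, pow_zero, one_mul]
      show lm M * nf (lm M) i.1 (nf (lm M) i.2.1 (W i.2.2 M)) x - _ = lm M * (nf (lm M) i.1
        (nf (lm M) i.2.1 (W i.2.2 M)) x - _)
      ring
    rw [e1, norm_mul, norm_lm]
    calc ((M : ℝ) + 1) * ‖(nd i.1 (nd i.2.1 (W i.2.2)) - gen Θ (cx ρ) 0 0
          (fun x => zz Θ i.1 x * (zz Θ i.2.1 x * (η i.2.2 * χ x)))) M x‖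
        ≤ ((M : ℝ) + 1) * (C₁ * (((M : ℝ) + 1)⁻¹) ^ 1 *
          (1 + ((M : ℝ) + 1) * |ρ x|) ^ L₁ * ‖Complex.exp (lm M * Θ x)‖) := by
          gcongr
          exact hb₁ i M x
      _ = C₁ * (1 + ((M : ℝ) + 1) * |ρ x|) ^ L₁ * ‖Complex.exp (lm M * Θ x)‖ := by
          rw [pow_one]
          field_simp
      _ ≤ (C₁ + C₂) * (1 + ((M + 1 : ℕ) : ℝ) * |ρ x|) ^ (L₁ + L₂) *
          ‖Complex.exp (lm M * Θ x)‖ := by
          push_cast
          have h5 : C₁ ≤ C₁ + C₂ := by linarith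
          gcongr
  · intro M hM l x
    obtain ⟨M, rfl⟩ : ∃ M', M = M' + 1 := ⟨M - 1, by omega⟩
    have h2 : ((M + 1 : ℕ) : ℂ) = lm M := by unfold lm; push_cast; rfl
    rw [h2]
    simp only [Nat.add_sub_cancel]
    have h3 : (1 : ℝ) ≤ 1 + ((M : ℝ) + 1) * |ρ x| := by
      have : 0 ≤ ((M : ℝ) + 1) * |ρ x| := by positivity
      linarith
    have h4 := pow_le_pow_right₀ h3 (Nat.le_add_left L₂ L₁)
    have hM0 : (0 : ℝ) < (M : ℝ) + 1 := by positivity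
    have e1 : lav s A (vec W M) x l = lm M ^ 2 * Lv s A W l M x := by
      unfold Lv
      have := lm_ne M
      field_simp
    rw [e1, norm_mul, norm_pow, norm_lm]
    calc ((M : ℝ) + 1) ^ 2 * ‖Lv s A W l M x‖
        ≤ ((M : ℝ) + 1) ^ 2 * (C₂ * (((M : ℝ) + 1)⁻¹) ^ (K + 1 + 1) *
          (1 + ((M : ℝ) + 1) * |ρ x|) ^ L₂ * ‖Complex.exp (lm M * Θ x)‖) := by
          gcongr
          exact hb₂ l M x
      _ = C₂ * (((M : ℝ) + 1)⁻¹) ^ K * (1 + ((M : ℝ) + 1) * |ρ x|) ^ L₂ *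
          ‖Complex.exp (lm M * Θ x)‖ := by
          rw [show K + 1 + 1 = K + 2 from rfl, pow_add]
          field_simp
      _ ≤ (C₁ + C₂) * (((M + 1 : ℕ) : ℝ)⁻¹) ^ K * (1 + ((M + 1 : ℕ) : ℝ) * |ρ x|) ^ (L₁ + L₂) *
          ‖Complex.exp (lm M * Θ x)‖ := by
          push_cast
          have h5 : C₂ ≤ C₁ + C₂ := by linarith
          gcongr

end Vale.Agent.P088.R2.H867
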