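import Vale.Agent.P088.R2.H381.QAlg

/-!
# P088, boundary quasimodes for pairs: the phase

The phase of `H381.quAlg`, with the sign of `Re β` and the equation `s(ζ, ζ) = 0` at `p`.
-/

open MeasureTheory Set Filter Topology
open scoped ContDiff Matrix ComplexConjugate

noncomputable section

namespace Vale.Agent.P088.R2.H867

open Vale.Agent.P088.LR Vale.Agent.P088.LR.B Vale.Agent.P088.LR.H705 Vale.Agent.P088.R2.H381

variable {n : ℕ}

/-- The phase near a boundary point. -/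
theorem phase {ρ : V n → ℝ} (hD : Dom ρ) {s : MF n} (hs : SmM s) (hpos : ∀ x, (s x).PosDef)
    {p : V n} (hp : ρ p = 0) {τ : V n} (hτ : ∑ i, τ i ^ 2 = 1) (hτp : ∑ i, τ i * pd i ρ p = 0) :
    ∃ (β : ℂ) (Θ : V n → ℂ) (k : V n → ℝ) (G : Set (V n)) (e g : V n → ℂ),
      β.re < 0 ∧ B s Θ Θ p = 0 ∧ ContDiff ℝ ∞ Θ ∧ Continuous k ∧
      (∀ x, 0 < k x) ∧ (∀ x, (Θ x).re = -(ρ x * k x)) ∧
      (∀ a, pd a Θ p = Complex.I * τ a + β * (pd a ρ p : ℝ)) ∧ IsOpen G ∧ p ∈ G ∧
      ∀ S ⊆ G, Ph s Θ (cx ρ) S e g := by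
  have hρ := hD.sm
  have hsym : ∀ x, (s x).IsSymm := fun x => symm_of (hpos x)
  have hr : ContDiff ℝ ∞ (cx ρ) := cx_contDiff hρ
  have hdne : (fun j => pd j ρ p) ≠ 0 := grad_ne (hD.nz p hp)
  -- the coefficients
  set al : V n → ℝ := fun x => qf (s x) (fun j => pd j ρ x) (fun j => pd j ρ x) with hal
  set ga : V n → ℝ := fun x => qf (s x) τ (fun j => pd j ρ x) with hga
  set de : V n → ℝ := fun x => qf (s x) τ τ with hde
  have halc : ContDiff ℝ ∞ al := qf_contDiff hs (pdr_contDiff hρ) (pdr_contDiff hρ)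
  have hgac : ContDiff ℝ ∞ ga := qf_contDiff hs (fun _ => contDiff_const) (pdr_contDiff hρ)
  have hdec : ContDiff ℝ ∞ de := qf_contDiff hs (fun _ => contDiff_const) (fun _ => contDiff_const)
  have hDc : ContDiff ℝ ∞ fun x => al x * de x - ga x ^ 2 := (halc.mul hdec).sub (hgac.pow 2)
  obtain ⟨A, hA, hA0, R₁, hR₁, hAR⟩ := pos_ext halc (fun x => qf_nonneg (hpos x) _)
    (qf_pos (hpos p) hdne)
  obtain ⟨D, hDD, hD0, R₂, hR₂, hDR⟩ := pos_ext hDc (fun x => gram_nonneg (hpos x) _ _)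
    (gram_pos (hpos p) hdne hτ hτp)
  -- `k`, `b = -k - i γ/A`
  have hsq : ContDiff ℝ ∞ fun x => √(D x) := hDD.sqrt fun x => (hD0 x).ne'
  set k : V n → ℝ := fun x => √(D x) / A x with hk
  have hkc : ContDiff ℝ ∞ k := hsq.div hA fun x => (hA0 x).ne'
  have hk0 : ∀ x, 0 < k x := fun x => div_pos (Real.sqrt_pos.2 (hD0 x)) (hA0 x)
  set b : V n → ℂ := fun x => -((k x : ℝ) : ℂ) + Complex.I * ((-(ga x / A x) : ℝ) : ℂ) with hb
  have hbc : ContDiff ℝ ∞ b := (cx_contDiff hkc).neg.add (contDiff_const.mul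
    (cx_contDiff (hgac.div hA fun x => (hA0 x).ne').neg))
  set Θ : V n → ℂ := fun x => lin τ x + cx ρ x * b x with hΘd
  have hrb : ContDiff ℝ ∞ fun x => cx ρ x * b x := hr.mul hbc
  have hΘ : ContDiff ℝ ∞ Θ := (lin_contDiff τ).add hrb
  set e : V n → ℂ := fun x => 2 * B s (lin τ) b x + B s (fun y => cx ρ y * b y) b x +
    b x * B s b (cx ρ) x with he
  have hec : ContDiff ℝ ∞ e :=
    ((contDiff_const.mul (contDiff_B hs (lin_contDiff τ) hbc)).add (contDiff_B hs hrb hbc)).add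
      (hbc.mul (contDiff_B hs hbc hr))
  -- algebra
  have hB1 : ∀ x, B s Θ Θ x = (-(de x : ℂ) + 2 * b x * (Complex.I * ga x) + b x ^ 2 * al x) +
      cx ρ x * e x := by
    intro x
    have e1 : B s Θ Θ x = B s (lin τ) (lin τ) x + B s (lin τ) (fun y => cx ρ y * b y) x +
        (B s (fun y => cx ρ y * b y) (lin τ) x +
          B s (fun y => cx ρ y * b y) (fun y => cx ρ y * b y) x) := by
      rw [B_add_left s (lin_contDiff τ) hrb, B_add_right s (lin_contDiff τ) hrb,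
        B_add_right s (lin_contDiff τ) hrb]
    rw [e1, B_symm hsym (fun y => cx ρ y * b y) (lin τ), B_mul_right s hr hbc,
      B_mul_right s hr hbc (u := fun y => cx ρ y * b y), B_mul_left s hr hbc (u := cx ρ),
      B_lin_lin, B_lin_cx s τ hρ, B_cx_cx s hρ]
    simp only [he]
    ring
  have hB2 : ∀ x, B s Θ (cx ρ) x = Complex.I * ga x + cx ρ x * B s b (cx ρ) x + b x * al x := by
    intro x
    rw [B_add_left s (lin_contDiff τ) hrb, B_mul_left s hr hbc (u := cx ρ), B_lin_cx s τ hρ,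
      B_cx_cx s hρ]
    ring
  -- `b` near `p`
  have hbp : ∀ x ∈ Metric.ball p (min R₁ R₂), b x = -((√(D x) : ℂ) + Complex.I * ga x) / al x ∧
      (√(D x) : ℂ) ^ 2 = al x * de x - ga x ^ 2 ∧ (al x : ℂ) ≠ 0 := by
    intro x hx
    have h1 : A x = al x := hAR x (Metric.ball_subset_ball (min_le_left _ _) hx)
    have h2 : D x = al x * de x - ga x ^ 2 := hDR x (Metric.ball_subset_ball (min_le_right _ _) hx)
    have h3 : (al x : ℂ) ≠ 0 := by
      rw [← h1]; exact_mod_cast (hA0 x).ne'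
    refine ⟨?_, ?_, h3⟩
    · simp only [hb, hk, h1]
      push_cast
      field_simp
      ring
    · have h4 : √(D x) ^ 2 = al x * de x - ga x ^ 2 := by
        rw [Real.sq_sqrt (hD0 x).le, h2]
      exact_mod_cast h4
  have hpb : p ∈ Metric.ball p (min R₁ R₂) := Metric.mem_ball_self (lt_min hR₁ hR₂)
  obtain ⟨hp1, hp2, hp3⟩ := hbp p hpb
  -- the eikonal equation near `p`
  have heik : ∀ x ∈ Metric.ball p (min R₁ R₂), B s Θ Θ x = cx ρ x * e x := by
    intro x hx
    obtain ⟨h1, h2, h3⟩ := hbp x hx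
    rw [hB1]
    have h4 := eik_pt h3 h2
    rw [← h1] at h4
    linear_combination h4
  -- division
  have hgp : B s Θ (cx ρ) p ≠ 0 := by
    have h1 : B s Θ (cx ρ) p = -(√(D p) : ℂ) := by
      rw [hB2, hp1]
      unfold cx
      rw [hp]
      field_simp
      push_cast
      ring
    rw [h1, neg_ne_zero]
    exact_mod_cast (Real.sqrt_pos.2 (hD0 p)).ne'
  obtain ⟨g, hg, R₃, hR₃, hgR⟩ := inv_ext (contDiff_B hs hΘ hr) hgp
  refine ⟨b p, Θ, k, Metric.ball p (min (min R₁ R₂) R₃), e, g, ?_, ?_, hΘ, hkc.continuous, hk0,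
    ?_, ?_, Metric.isOpen_ball, Metric.mem_ball_self (lt_min (lt_min hR₁ hR₂) hR₃), ?_⟩
  · -- the sign
    have h1 : (b p).re = -k p := by
      simp [hb]
    rw [h1]
    exact neg_lt_zero.2 (hk0 p)
  · rw [heik p hpb]
    unfold cx
    rw [hp]
    simp
  · intro x
    simp only [hΘd, hb, lin, cx]
    simp
  · intro a
    have h1 : pd a Θ p = pd a (lin τ) p + pd a (fun x => cx ρ x * b x) p := by
      unfold pd
      rw [hΘd, fderiv_fun_add ((lin_contDiff τ).differentiable (by simp) p)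
        (hrb.differentiable (by simp) p)]
      rfl
    rw [h1, pd_lin, pd_mul hr hbc, pd_cx hρ]
    unfold cx
    rw [hp]
    push_cast
    ring
  · intro S hSG
    refine ⟨hΘ, hr, hec, hg, fun x hx => ?_, fun x hx => ?_⟩
    · exact heik x (Metric.ball_subset_ball (min_le_left _ _) (hSG hx))
    · exact hgR x (Metric.ball_subset_ball (min_le_right _ _) (hSG hx))

end Vale.Agent.P088.R2.H867
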