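import Vale.Agent.P088.R2.H381.QCore
import Vale.Agent.P088.R2.H867.VBd
import Vale.Agent.P088.R2.H867.VPh

/-!
# P088, boundary quasimodes for pairs: one quasimode for every `ε`
-/

open MeasureTheory Set Filter Topology
open scoped ContDiff Matrix ComplexConjugate

noncomputable section

namespace Vale.Agent.P088.R2.H867

open Vale.Agent.P088.LR Vale.Agent.P088.LR.B Vale.Agent.P088.R2.H381
open Vale.Agent.P088.LR.U (lav)

variable {n N : ℕ}

theorem nf_zero_off {S : Set (V n)} (hS : IsClosed S) {f : V n → ℂ} (hf : ∀ x ∉ S, f x = 0)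
    (c : ℂ) (o : Option (Fin n)) : ∀ x ∉ S, nf c o f x = 0 := by
  cases o with
  | none => exact hf
  | some a =>
    intro x hx
    show c⁻¹ * pd a f x = 0
    rw [zero_off hS hf a x hx, mul_zero]

theorem Xi_zero_off {S : Set (V n)} (hS : IsClosed S) {U : V n → Fin N → ℂ}
    (hU : ∀ x ∉ S, U x = 0) (c : ℂ) (i : Id n N) : ∀ x ∉ S, Xi c U i x = 0 := by
  intro x hx
  unfold Xi
  rw [nf_zero_off hS (nf_zero_off hS (fun y hy => by rw [hU y hy]; rfl) c i.2.1) c i.1 x hx,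
    mul_zero]

theorem Xi_continuous {U : V n → Fin N → ℂ} (hU : ContDiff ℝ ∞ U) (c : ℂ) (i : Id n N) :
    Continuous (Xi c U i) :=
  continuous_const.mul
    (nf_contDiff (nf_contDiff ((contDiff_pi.1 hU) i.2.2) c i.2.1) c i.1).continuous

theorem sy_continuous {Θ : V n → ℂ} (hΘ : ContDiff ℝ ∞ Θ) (η : Fin N → ℂ) (i : Id n N) :
    Continuous (sy Θ η i) :=
  (zz_contDiff hΘ i.1).continuous.mul ((zz_contDiff hΘ i.2.1).continuous.mul continuous_const)

theorem lav_contDiff {s : MF n} (hs : SmM s) {A : Cn n N} (hA : SmU A) {u : V n → Fin N → ℂ}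
    (hu : ContDiff ℝ ∞ u) : ContDiff ℝ ∞ (lav s A u) := by
  unfold lav
  exact ContDiff.sum fun i _ => H158.contDiff_cd hA
    (ContDiff.sum fun j _ => (csm hs i j).smul (H158.contDiff_cd hA hu j)) i

theorem lav_zero_off {s : MF n} (hs : SmM s) {A : Cn n N} (hA : SmU A) {S : Set (V n)}
    (hS : IsClosed S) {u : V n → Fin N → ℂ} (hu : ContDiff ℝ ∞ u) (h0 : ∀ x ∉ S, u x = 0)
    (l : Fin N) : ∀ x ∉ S, lav s A u x l = 0 := by
  intro x hx
  have h1 : ∀ m, ∀ y ∉ S, u y m = 0 := fun m y hy => by rw [h0 y hy]; rfl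
  have h2 : ∀ j m, ∀ y ∉ S, pd j (fun y => u y m) y = 0 := fun j m => zero_off hS (h1 m) j
  rw [lav_apply hs hA hu, dv_zero_off hS (h1 l) x hx, zero_add]
  refine Finset.sum_eq_zero fun i _ => ?_
  rw [zero_off hS (f := fun y => ∑ j, ∑ m, ((s y i j : ℂ) * A j y l m) * u y m) (fun y hy => ?_) i
    x hx, zero_add]
  · refine Finset.sum_eq_zero fun j _ => Finset.sum_eq_zero fun m _ => ?_
    rw [h2 j m x hx, mul_zero, zero_add]
    refine Finset.sum_eq_zero fun m' _ => ?_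
    rw [h1 m' x hx, mul_zero]
  · refine Finset.sum_eq_zero fun j _ => Finset.sum_eq_zero fun m _ => ?_
    rw [h1 m y hy, mul_zero]

/-- The conclusion of `coreV`. -/
def CorV (ρ : V n → ℝ) (s : MF n) (A : Cn n N) (p : V n) (Θ : V n → ℂ) (η : Fin N → ℂ) (j : ℕ)
    (ε : ℝ) (U : V n → Fin N → ℂ) (Z : ℝ) (M : ℕ) : Prop :=
  ContDiff ℝ ∞ U ∧ 0 < Z ∧ (∀ x ∉ Metric.closedBall p ε, U x = 0) ∧ 1 ≤ M ∧ (M : ℝ)⁻¹ ≤ ε ∧
    Z⁻¹ * ∫ x in Om ρ, ∑ l, ‖lav s A U x l‖ ^ 2 ≤ ε ∧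
    ∀ i i' : Id n N, ‖((Z : ℝ) : ℂ)⁻¹ * (∫ x in Om ρ, ((ρ x ^ j : ℝ) : ℂ) *
      (Xi (M : ℂ) U i x * conj (Xi (M : ℂ) U i' x))) - sy Θ η i p * conj (sy Θ η i' p)‖ ≤ ε

theorem coreV {ρ : V n → ℝ} (hD : Dom ρ) {s : MF n} (hs : SmM s) {A : Cn n N} (hA : SmU A)
    {p : V n} (hp : ρ p = 0)
    {Θ : V n → ℂ} (hΘ : ContDiff ℝ ∞ Θ) {k : V n → ℝ} (hk : Continuous k) (hk0 : ∀ x, 0 < k x)
    (hre : ∀ x, (Θ x).re = -(ρ x * k x)) {G : Set (V n)} (hG : IsOpen G) (hpG : p ∈ G)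
    (η : Fin N → ℂ)
    (hU : ∀ S, IsCompact S → S ⊆ G → ∀ χ : V n → ℂ, ContDiff ℝ ∞ χ → (∀ x ∉ S, χ x = 0) →
      ∀ K : ℕ, ∃ (U : ℕ → V n → Fin N → ℂ) (C : ℝ) (L : ℕ), 0 ≤ C ∧ (∀ M, ContDiff ℝ ∞ (U M)) ∧
        (∀ M, ∀ x ∉ S, U M x = 0) ∧
        (∀ M : ℕ, 1 ≤ M → ∀ i x, ‖Xi (M : ℂ) (U M) i x -
          M * sy Θ η i x * Complex.exp (M * Θ x) * χ x‖ ≤
          C * (1 + M * |ρ x|) ^ L * ‖Complex.exp (M * Θ x)‖) ∧
        ∀ M : ℕ, 1 ≤ M → ∀ l x, ‖lav s A (U M) x l‖ ≤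
          C * ((M : ℝ)⁻¹) ^ K * (1 + M * |ρ x|) ^ L * ‖Complex.exp (M * Θ x)‖)
    (j : ℕ) {ε : ℝ} (hε : 0 < ε) :
    ∃ (U : V n → Fin N → ℂ) (Z : ℝ) (M : ℕ), CorV ρ s A p Θ η j ε U Z M := by
  have hρ := hD.sm
  have hρc := hρ.continuous
  obtain ⟨r₀, hr₀, hup⟩ := int_up hρ (hD.nz p hp) hΘ.continuous hk hk0 hre
  -- the radius
  have hcont : ∀ a b, Continuous fun x => sy Θ η a x * conj (sy Θ η b x) := fun a b =>
    (sy_continuous hΘ η a).mul (Complex.continuous_conj.comp (sy_continuous hΘ η b))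
  have hev : ∀ᶠ x in 𝓝 p, x ∈ G ∧ ∀ a b : Id n N,
      ‖sy Θ η a x * conj (sy Θ η b x) - sy Θ η a p * conj (sy Θ η b p)‖ < ε / 2 := by
    have hGn : ∀ᶠ x in 𝓝 p, x ∈ G := hG.mem_nhds hpG
    refine hGn.and (eventually_all.2 fun a => eventually_all.2 fun b => ?_)
    have h1 : Continuous fun x =>
        ‖sy Θ η a x * conj (sy Θ η b x) - sy Θ η a p * conj (sy Θ η b p)‖ :=
      ((hcont a b).sub continuous_const).norm
    exact h1.continuousAt.eventually (gt_mem_nhds (by simpa using by positivity))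
  obtain ⟨r₁, hr₁, hr₁'⟩ := Metric.eventually_nhds_iff_ball.1 hev
  set r : ℝ := min (min r₀ ε) (r₁ / 2) with hrd
  have hr : 0 < r := lt_min (lt_min hr₀ hε) (by positivity)
  have hrr₀ : r ≤ r₀ := (min_le_left _ _).trans (min_le_left _ _)
  have hrε : r ≤ ε := (min_le_left _ _).trans (min_le_right _ _)
  have hrr₁ : r < r₁ := (min_le_right _ _).trans_lt (by linarith)
  have hSb : ∀ x ∈ Metric.closedBall p r, x ∈ Metric.ball p r₁ := fun x hx =>
    Metric.closedBall_subset_ball hrr₁ hx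
  -- the cut-off
  let φ : ContDiffBump p := ⟨r / 2, r, by positivity, by linarith⟩
  set χ : V n → ℂ := fun x => ((φ x : ℝ) : ℂ) with hχd
  have hχ : ContDiff ℝ ∞ χ := Complex.ofRealCLM.contDiff.comp φ.contDiff
  have hχ0 : ∀ x ∉ Metric.closedBall p r, χ x = 0 := by
    intro x hx
    have : φ x = 0 := by
      by_contra h
      have h2 : x ∈ Metric.ball p r := (φ.support_eq ▸ (Function.mem_support.2 h))
      exact hx (Metric.ball_subset_closedBall h2)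
    simp [hχd, this]
  have hχ1 : ∀ x ∈ Metric.closedBall p (r / 2), χ x = 1 := by
    intro x hx
    have : φ x = 1 := φ.one_of_mem_closedBall hx
    simp [hχd, this]
  have hχn : ∀ x, ‖χ x‖ ≤ 1 := by
    intro x
    simp only [hχd, Complex.norm_real, Real.norm_eq_abs]
    rw [abs_of_nonneg φ.nonneg]
    exact φ.le_one
  obtain ⟨U, C, L, hC, hUs, hU0, hUp, hUd⟩ := hU (Metric.closedBall p r) (isCompact_closedBall p r)
    (fun x hx => (hr₁' x (hSb x hx)).1) χ hχ hχ0 j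
  -- bound of the symbols
  obtain ⟨T, hT0, hT⟩ : ∃ T, 0 ≤ T ∧ ∀ x ∈ Metric.closedBall p r, ∀ a, ‖sy Θ η a x‖ ≤ T := by
    choose T hT using fun a => (isCompact_closedBall p r).exists_bound_of_continuousOn
      (sy_continuous hΘ η a).continuousOn
    refine ⟨∑ a, |T a|, Finset.sum_nonneg fun a _ => abs_nonneg _, fun x hx a => ?_⟩
    exact ((hT a x hx).trans (le_abs_self _)).trans
      (Finset.single_le_sum (f := fun a => |T a|) (fun b _ => abs_nonneg _) (Finset.mem_univ a))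
  obtain ⟨C₃, hC₃, hup3⟩ := hup r hr hrr₀ (2 * L + j)
  obtain ⟨c, hc, M₀, hlow⟩ := int_low hD hp hΘ.continuous hk hk0 hre (half_pos hr) hχ.continuous hχ1 j
  -- choice of `M`
  set Q : ℝ := N * C ^ 2 * C₃ / c + (2 * C * T + C ^ 2) * C₃ / c + 1 with hQ
  have hQ0 : 0 ≤ Q := by positivity
  have hQ1 : 1 ≤ Q := by
    have : 0 ≤ N * C ^ 2 * C₃ / c + (2 * C * T + C ^ 2) * C₃ / c := by positivity
    linarith
  obtain ⟨N₀, hN₀⟩ := exists_nat_gt (Q / (ε / 2))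
  set M : ℕ := max (max N₀ M₀) 1 with hNd
  have hN1' : 1 ≤ M := le_max_right _ _
  have hN1 : (1 : ℝ) ≤ M := by exact_mod_cast hN1'
  have hN0 : (0 : ℝ) < M := by linarith
  have hNM : M₀ ≤ M := (le_max_right _ _).trans (le_max_left _ _)
  have hQN : Q * (M : ℝ)⁻¹ ≤ ε / 2 := by
    have h1 : (N₀ : ℝ) ≤ M := by
      have : N₀ ≤ M := (le_max_left _ _).trans (le_max_left _ _)
      exact_mod_cast this
    rw [← div_eq_mul_inv, div_le_iff₀ hN0]
    rw [div_lt_iff₀ (by positivity)] at hN₀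
    nlinarith
  have hMε : (M : ℝ)⁻¹ ≤ ε := by
    have h1 : 0 ≤ (M : ℝ)⁻¹ := by positivity
    nlinarith
  set E : V n → ℝ := fun x => ‖Complex.exp (M * Θ x)‖ with hE
  have hE0 : ∀ x, 0 ≤ E x := fun x => norm_nonneg _
  have hEc : Continuous E := by
    have := hΘ.continuous
    fun_prop
  set J : ℝ := ∫ x in Om ρ, ρ x ^ j * ‖χ x‖ ^ 2 * E x ^ 2 with hJ
  have hJl : c * ((M : ℝ)⁻¹) ^ (j + 1) ≤ J := hlow M hNM
  have hJ0 : 0 < J := lt_of_lt_of_le (by positivity) hJl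
  set Z : ℝ := (M : ℝ) ^ 2 * J with hZ
  have hZ0 : 0 < Z := by positivity
  have hZl : c * M * ((M : ℝ)⁻¹) ^ j ≤ Z := by
    have e1 : (M : ℝ) * (M : ℝ)⁻¹ = 1 := mul_inv_cancel₀ hN0.ne'
    have e2 : c * M * ((M : ℝ)⁻¹) ^ j = (M : ℝ) ^ 2 * (c * ((M : ℝ)⁻¹) ^ (j + 1)) := by
      rw [pow_succ]
      linear_combination (-c * M * ((M : ℝ)⁻¹) ^ j) * e1
    rw [e2, hZ]
    exact mul_le_mul_of_nonneg_left hJl (by positivity)
  have hmeas : MeasurableSet (Om ρ ∩ Metric.closedBall p r) :=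
    (Om_meas hρc).inter Metric.isClosed_closedBall.measurableSet
  set I : ℝ := ∫ x in Om ρ ∩ Metric.closedBall p r, (1 + M * ρ x) ^ (2 * L + j) * E x ^ 2 with hI
  have hIu : I ≤ C₃ * (M : ℝ)⁻¹ := hup3 M hN1'
  have hcI : Continuous fun x => (1 + M * ρ x) ^ (2 * L + j) * E x ^ 2 := by fun_prop
  refine ⟨U M, Z, M, hUs M, hZ0, fun x hx => hU0 M x fun h => hx
    (Metric.closedBall_subset_closedBall hrε h), hN1', hMε, ?_, ?_⟩
  · -- the residual
    have hLc : ∀ l, Continuous fun x => lav s A (U M) x l := fun l =>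
      ((contDiff_pi.1 (lav_contDiff hs hA (hUs M))) l).continuous
    have h1 : ∫ x in Om ρ, ∑ l, ‖lav s A (U M) x l‖ ^ 2 ≤ N * C ^ 2 * ((M : ℝ)⁻¹) ^ (2 * j) * I := by
      rw [int_S hρc (p := p) (r := r) (fun x hx => by
        refine Finset.sum_eq_zero fun l _ => ?_
        rw [lav_zero_off hs hA Metric.isClosed_closedBall (hUs M) (hU0 M) l x hx]; simp), hI,
        ← integral_const_mul]
      have hc1 : Continuous fun x => ∑ l, ‖lav s A (U M) x l‖ ^ 2 :=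
        continuous_finsetSum _ fun l _ => (hLc l).norm.pow 2
      refine setIntegral_mono_on (int_on hc1 _) (int_on (continuous_const.mul hcI) _) hmeas
        fun x hx => ?_
      have hx0 : 0 < ρ x := hx.1
      have hP : 1 ≤ 1 + M * ρ x := by
        have : 0 ≤ M * ρ x := by positivity
        linarith
      have h2 : ∀ l, ‖lav s A (U M) x l‖ ^ 2 ≤
          C ^ 2 * ((M : ℝ)⁻¹) ^ (2 * j) * ((1 + M * ρ x) ^ (2 * L + j) * E x ^ 2) := by
        intro l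
        have h2 := hUd M hN1' l x
        rw [abs_of_pos hx0] at h2
        calc ‖lav s A (U M) x l‖ ^ 2 ≤ (C * ((M : ℝ)⁻¹) ^ j * (1 + M * ρ x) ^ L * E x) ^ 2 :=
              pow_le_pow_left₀ (norm_nonneg _) h2 2
          _ = C ^ 2 * ((M : ℝ)⁻¹) ^ (2 * j) * ((1 + M * ρ x) ^ (2 * L) * E x ^ 2) := by ring
          _ ≤ _ := by
            have h3 : (1 + M * ρ x) ^ (2 * L) ≤ (1 + M * ρ x) ^ (2 * L + j) :=
              pow_le_pow_right₀ hP (by omega)
            gcongr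
      calc ∑ l, ‖lav s A (U M) x l‖ ^ 2 ≤ ∑ l : Fin N,
            C ^ 2 * ((M : ℝ)⁻¹) ^ (2 * j) * ((1 + M * ρ x) ^ (2 * L + j) * E x ^ 2) :=
            Finset.sum_le_sum fun l _ => h2 l
        _ = N * C ^ 2 * ((M : ℝ)⁻¹) ^ (2 * j) * ((1 + M * ρ x) ^ (2 * L + j) * E x ^ 2) := by
            rw [Finset.sum_const, Finset.card_univ, Fintype.card_fin, nsmul_eq_mul]
            ring
    have hI0 : 0 ≤ I := integral_nonneg_of_ae ((ae_restrict_iff' hmeas).2
      (Eventually.of_forall fun x hx => by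
        have hx0 : 0 < ρ x := hx.1
        show 0 ≤ (1 + M * ρ x) ^ (2 * L + j) * E x ^ 2
        positivity))
    have h2 : Z⁻¹ * ∫ x in Om ρ, ∑ l, ‖lav s A (U M) x l‖ ^ 2 ≤ Q * (M : ℝ)⁻¹ := by
      rw [inv_mul_le_iff₀ hZ0]
      refine h1.trans ?_
      have h3 : ((M : ℝ)⁻¹) ^ (2 * j) ≤ ((M : ℝ)⁻¹) ^ j :=
        pow_le_pow_of_le_one (by positivity) (inv_le_one_of_one_le₀ hN1) (by omega)
      calc N * C ^ 2 * ((M : ℝ)⁻¹) ^ (2 * j) * I
          ≤ N * C ^ 2 * ((M : ℝ)⁻¹) ^ j * (C₃ * (M : ℝ)⁻¹) := by gcongr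
        _ ≤ N * C ^ 2 * ((M : ℝ)⁻¹) ^ j * (C₃ * 1) := by
            gcongr
            exact inv_le_one_of_one_le₀ hN1
        _ = (c * M * ((M : ℝ)⁻¹) ^ j) * (N * C ^ 2 * C₃ / c * (M : ℝ)⁻¹) := by field_simp
        _ ≤ Z * (Q * (M : ℝ)⁻¹) := by
            have h4 : N * C ^ 2 * C₃ / c ≤ Q := by
              have : 0 ≤ (2 * C * T + C ^ 2) * C₃ / c := by positivity
              linarith
            gcongr
    linarith
  · -- the limit
    intro a b
    have hec : Continuous fun x => Complex.exp (M * Θ x) := by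
      have := hΘ.continuous
      fun_prop
    have hmc : ∀ a, Continuous fun x => M * sy Θ η a x * Complex.exp (M * Θ x) * χ x := fun a =>
      ((continuous_const.mul (sy_continuous hΘ η a)).mul hec).mul hχ.continuous
    have hm : ∀ a, ∀ x ∈ Metric.closedBall p r,
        ‖M * sy Θ η a x * Complex.exp (M * Θ x) * χ x‖ ≤ M * T * E x := by
      intro a x hx
      simp only [norm_mul, Complex.norm_natCast]
      calc (M : ℝ) * ‖sy Θ η a x‖ * ‖Complex.exp (M * Θ x)‖ * ‖χ x‖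
          ≤ M * T * E x * 1 := by
            gcongr
            · exact hT x hx a
            · exact hχn x
        _ = _ := by ring
    have h1 := diff1 hD (p := p) (r := r) (Xi_continuous (hUs M) M a) (Xi_continuous (hUs M) M b)
      (hmc a) (hmc b) (Xi_zero_off Metric.isClosed_closedBall (hU0 M) M a)
      (fun x hx => by rw [hχ0 x hx, mul_zero]) hEc hE0 hC hT0 hN1 L j (hUp M hN1' a) (hUp M hN1' b)
      (hm a) (hm b)
    set w : V n → ℝ := fun x => ρ x ^ j * ‖χ x‖ ^ 2 * E x ^ 2 with hw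
    have hwc : Continuous w := by
      have := hχ.continuous
      fun_prop
    have h2 := diff2 hD (p := p) (r := r) (hcont a b) hwc (fun x hx => by
      have hx0 : 0 < ρ x := hx
      simp only [hw]
      positivity) (fun x hx => by simp only [hw]; rw [hχ0 x hx]; simp)
      (sy Θ η a p * conj (sy Θ η b p)) (M := (M : ℝ) ^ 2) (ε := ε / 2) (by positivity)
      (fun x hx => ((hr₁' x (hSb x hx)).2 a b).le)
    have e2 : ∀ x, ((ρ x ^ j : ℝ) : ℂ) * ((M * sy Θ η a x * Complex.exp (M * Θ x) * χ x) *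
        conj (M * sy Θ η b x * Complex.exp (M * Θ x) * χ x)) =
        ((w x : ℝ) : ℂ) * ((((M : ℝ) ^ 2 : ℝ) : ℂ) * (sy Θ η a x * conj (sy Θ η b x))) := by
      intro x
      have e3 : ((‖χ x‖ ^ 2 : ℝ) : ℂ) = χ x * conj (χ x) := by
        rw [Complex.mul_conj, Complex.normSq_eq_norm_sq]
      have e4 : ((E x ^ 2 : ℝ) : ℂ) = Complex.exp (M * Θ x) * conj (Complex.exp (M * Θ x)) := by
        rw [Complex.mul_conj, Complex.normSq_eq_norm_sq]
      simp only [hw]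
      rw [Complex.ofReal_mul, Complex.ofReal_mul, e3, e4]
      simp only [map_mul, Complex.conj_natCast]
      push_cast
      ring
    simp_rw [e2] at h1
    rw [← hJ, ← hZ] at h2
    have h3 : ((2 * C * T + C ^ 2) * M * ((M : ℝ)⁻¹) ^ j) * I ≤ Z * (ε / 2) := by
      calc ((2 * C * T + C ^ 2) * M * ((M : ℝ)⁻¹) ^ j) * I
          ≤ ((2 * C * T + C ^ 2) * M * ((M : ℝ)⁻¹) ^ j) * (C₃ * (M : ℝ)⁻¹) := by gcongr
        _ = (c * M * ((M : ℝ)⁻¹) ^ j) * ((2 * C * T + C ^ 2) * C₃ / c * (M : ℝ)⁻¹) := by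
            field_simp
        _ ≤ Z * (Q * (M : ℝ)⁻¹) := by
            have h4 : (2 * C * T + C ^ 2) * C₃ / c ≤ Q := by
              have : 0 ≤ N * C ^ 2 * C₃ / c := by positivity
              linarith
            gcongr
        _ ≤ Z * (ε / 2) := by gcongr
    exact concl hZ0 (h1.trans h3) h2

end Vale.Agent.P088.R2.H867
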