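import Vale.Agent.P088.R2.H381.QRow
import Vale.Agent.P088.R2.H867.VCore

/-!
# P088, boundary quasimodes for pairs: the limits
-/

open MeasureTheory Set Filter Topology
open scoped ContDiff Matrix ComplexConjugate

noncomputable section

namespace Vale.Agent.P088.R2.H867

open Vale.Agent.P088.LR Vale.Agent.P088.LR.B Vale.Agent.P088.R2.H381
open Vale.Agent.P088.LR.U (lav)

variable {n N : ℕ}

/-- From `F = 1` to a continuous `F`, for two sequences concentrating at `p`. -/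
theorem lim_FG {ρ : V n → ℝ} (hD : Dom ρ) {p : V n} (hp : ρ p = 0) {j : ℕ} {A B : ℕ → V n → ℂ}
    {Z : ℕ → ℝ} (hA : ∀ M, Continuous (A M)) (hB : ∀ M, Continuous (B M))
    (hA0 : ∀ M : ℕ, ∀ x ∉ Metric.closedBall p (1 / ((M : ℝ) + 1)), A M x = 0)
    (hZ : ∀ M, 0 < Z M) {c ca cb : ℂ}
    (hm : Tendsto (fun M => ((Z M : ℝ) : ℂ)⁻¹ * ∫ x in Om ρ, ((ρ x ^ j : ℝ) : ℂ) *
      (A M x * conj (B M x))) atTop (𝓝 c))
    (hma : Tendsto (fun M => ((Z M : ℝ) : ℂ)⁻¹ * ∫ x in Om ρ, ((ρ x ^ j : ℝ) : ℂ) *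
      (A M x * conj (A M x))) atTop (𝓝 ca))
    (hmb : Tendsto (fun M => ((Z M : ℝ) : ℂ)⁻¹ * ∫ x in Om ρ, ((ρ x ^ j : ℝ) : ℂ) *
      (B M x * conj (B M x))) atTop (𝓝 cb))
    {F : V n → ℂ} (hF : ContinuousOn F (closure (Om ρ))) :
    Tendsto (fun M => ((Z M : ℝ) : ℂ)⁻¹ * ∫ x in Om ρ, ((ρ x ^ j : ℝ) : ℂ) * F x *
      (A M x * conj (B M x))) atTop (𝓝 (F p * c)) := by
  have hρc := hD.sm.continuous
  have hρj : Continuous fun x => ((ρ x ^ j : ℝ) : ℂ) :=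
    Complex.continuous_ofReal.comp (hρc.pow j)
  have hb := Om_bdd hD
  have hε : Tendsto (fun M : ℕ => 1 / ((M : ℝ) + 1)) atTop (𝓝 0) :=
    tendsto_one_div_add_atTop_nhds_zero_nat
  -- real masses
  have hreal : ∀ {A : ℕ → V n → ℂ} {ca : ℂ}, Tendsto (fun M => ((Z M : ℝ) : ℂ)⁻¹ *
      ∫ x in Om ρ, ((ρ x ^ j : ℝ) : ℂ) * (A M x * conj (A M x))) atTop (𝓝 ca) →
      Tendsto (fun M => (Z M)⁻¹ * ∫ x in Om ρ, ρ x ^ j * ‖A M x‖ ^ 2) atTop (𝓝 ca.re) := by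
    intro A ca h
    have h1 := (Complex.continuous_re.tendsto _).comp h
    refine h1.congr fun M => ?_
    have h2 : ((Z M : ℝ) : ℂ)⁻¹ * ∫ x in Om ρ, ((ρ x ^ j : ℝ) : ℂ) * (A M x * conj (A M x)) =
        (((Z M)⁻¹ * ∫ x in Om ρ, ρ x ^ j * ‖A M x‖ ^ 2 : ℝ) : ℂ) := by
      rw [Complex.ofReal_mul, Complex.ofReal_inv, ← integral_complex_ofReal]
      congr 1
      refine integral_congr_ae (Eventually.of_forall fun x => ?_)
      show ((ρ x ^ j : ℝ) : ℂ) * (A M x * conj (A M x)) = ((ρ x ^ j * ‖A M x‖ ^ 2 : ℝ) : ℂ)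
      rw [Complex.mul_conj, Complex.normSq_eq_norm_sq]
      push_cast
      ring
    show (((Z M : ℝ) : ℂ)⁻¹ * ∫ x in Om ρ, ((ρ x ^ j : ℝ) : ℂ) * (A M x * conj (A M x))).re = _
    rw [h2, Complex.ofReal_re]
  have hqa := hreal hma
  have hqb := hreal hmb
  -- the difference
  have hpc := mem_closure hD hp
  have hdiff : Tendsto (fun M => ((Z M : ℝ) : ℂ)⁻¹ * (∫ x in Om ρ, ((ρ x ^ j : ℝ) : ℂ) * F x *
        (A M x * conj (B M x))) - F p * (((Z M : ℝ) : ℂ)⁻¹ * ∫ x in Om ρ, ((ρ x ^ j : ℝ) : ℂ) *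
        (A M x * conj (B M x)))) atTop (𝓝 0) := by
    rw [Metric.tendsto_atTop]
    intro ε hε0
    set Q : ℝ := |ca.re| + |cb.re| + 2 with hQ
    have hQ0 : 0 < Q := by positivity
    -- closeness of `F`
    have hcw : ContinuousWithinAt F (closure (Om ρ)) p := hF p hpc
    obtain ⟨δ, hδ, hFδ⟩ := Metric.continuousWithinAt_iff.1 hcw (ε / (2 * Q)) (by positivity)
    have e1 : ∀ᶠ M : ℕ in atTop, 1 / ((M : ℝ) + 1) < δ := hε.eventually (gt_mem_nhds hδ)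
    have e2 : ∀ᶠ M in atTop, (Z M)⁻¹ * ∫ x in Om ρ, ρ x ^ j * ‖A M x‖ ^ 2 < |ca.re| + 1 :=
      hqa.eventually (gt_mem_nhds (by linarith [le_abs_self ca.re]))
    have e3 : ∀ᶠ M in atTop, (Z M)⁻¹ * ∫ x in Om ρ, ρ x ^ j * ‖B M x‖ ^ 2 < |cb.re| + 1 :=
      hqb.eventually (gt_mem_nhds (by linarith [le_abs_self cb.re]))
    obtain ⟨N₀, hN₀⟩ := eventually_atTop.1 (e1.and (e2.and e3))
    refine ⟨N₀, fun M hM => ?_⟩
    obtain ⟨h1, h2, h3⟩ := hN₀ M hM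
    have hZ0 := hZ M
    have hac := hA M
    have hbc := hB M
    have hcc : Continuous fun x => A M x * conj (B M x) :=
      hac.mul (Complex.continuous_conj.comp hbc)
    have i1 : IntegrableOn (fun x => ((ρ x ^ j : ℝ) : ℂ) * F x * (A M x * conj (B M x)))
        (Om ρ) := by
      have : ContinuousOn (fun x => ((ρ x ^ j : ℝ) : ℂ) * F x * (A M x * conj (B M x)))
          (closure (Om ρ)) := (hρj.continuousOn.mul hF).mul hcc.continuousOn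
      exact (this.integrableOn_compact hb.isCompact_closure).mono_set subset_closure
    have i2 : IntegrableOn (fun x => F p * (((ρ x ^ j : ℝ) : ℂ) * (A M x * conj (B M x))))
        (Om ρ) := int_Om hD (continuous_const.mul (hρj.mul hcc))
    have i3 : IntegrableOn (fun x => ρ x ^ j * ‖A M x‖ ^ 2) (Om ρ) :=
      int_Om hD ((hρc.pow j).mul (hac.norm.pow 2))
    have i4 : IntegrableOn (fun x => ρ x ^ j * ‖B M x‖ ^ 2) (Om ρ) :=
      int_Om hD ((hρc.pow j).mul (hbc.norm.pow 2))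
    rw [dist_zero_right]
    have e4 : ((Z M : ℝ) : ℂ)⁻¹ * (∫ x in Om ρ, ((ρ x ^ j : ℝ) : ℂ) * F x *
        (A M x * conj (B M x))) - F p * (((Z M : ℝ) : ℂ)⁻¹ * ∫ x in Om ρ, ((ρ x ^ j : ℝ) : ℂ) *
        (A M x * conj (B M x))) =
        ((Z M : ℝ) : ℂ)⁻¹ * ∫ x in Om ρ, (((ρ x ^ j : ℝ) : ℂ) * F x * (A M x * conj (B M x)) -
        F p * (((ρ x ^ j : ℝ) : ℂ) * (A M x * conj (B M x)))) := by
      rw [integral_sub i1 i2, integral_const_mul]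
      ring
    rw [e4, norm_mul, norm_inv, Complex.norm_real, Real.norm_eq_abs, abs_of_pos hZ0]
    have h5 : ‖∫ x in Om ρ, (((ρ x ^ j : ℝ) : ℂ) * F x * (A M x * conj (B M x)) -
        F p * (((ρ x ^ j : ℝ) : ℂ) * (A M x * conj (B M x))))‖ ≤
        ∫ x in Om ρ, (ε / (2 * Q)) * (ρ x ^ j * ‖A M x‖ ^ 2 + ρ x ^ j * ‖B M x‖ ^ 2) := by
      refine (norm_integral_le_integral_norm _).trans ?_
      refine setIntegral_mono_on (i1.sub i2).norm ((i3.add i4).const_mul _) (Om_meas hρc)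
        fun x hx => ?_
      have hx0 : 0 < ρ x := hx
      have e5 : ((ρ x ^ j : ℝ) : ℂ) * F x * (A M x * conj (B M x)) -
          F p * (((ρ x ^ j : ℝ) : ℂ) * (A M x * conj (B M x))) =
          (F x - F p) * (((ρ x ^ j : ℝ) : ℂ) * (A M x * conj (B M x))) := by ring
      rw [e5, norm_mul, norm_mul, norm_mul, RCLike.norm_conj, Complex.norm_real, Real.norm_eq_abs,
        abs_of_nonneg (by positivity)]
      by_cases hxS : x ∈ Metric.closedBall p (1 / ((M : ℝ) + 1))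
      · have h6 : ‖F x - F p‖ ≤ ε / (2 * Q) := by
          rw [← dist_eq_norm]
          exact (hFδ (subset_closure hx) (lt_of_le_of_lt (Metric.mem_closedBall.1 hxS) h1)).le
        have h7 : ‖A M x‖ * ‖B M x‖ ≤ ‖A M x‖ ^ 2 + ‖B M x‖ ^ 2 := by
          nlinarith [sq_nonneg (‖A M x‖ - ‖B M x‖), sq_nonneg ‖A M x‖, sq_nonneg ‖B M x‖]
        calc ‖F x - F p‖ * (ρ x ^ j * (‖A M x‖ * ‖B M x‖))
            ≤ (ε / (2 * Q)) * (ρ x ^ j * (‖A M x‖ ^ 2 + ‖B M x‖ ^ 2)) := by gcongr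
          _ = _ := by ring
      · rw [hA0 M x hxS]
        simp only [norm_zero, zero_mul, mul_zero]
        positivity
    have h6 : (Z M)⁻¹ * ∫ x in Om ρ, (ε / (2 * Q)) * (ρ x ^ j * ‖A M x‖ ^ 2 +
        ρ x ^ j * ‖B M x‖ ^ 2) = (ε / (2 * Q)) * ((Z M)⁻¹ * (∫ x in Om ρ, ρ x ^ j * ‖A M x‖ ^ 2) +
        (Z M)⁻¹ * ∫ x in Om ρ, ρ x ^ j * ‖B M x‖ ^ 2) := by
      rw [integral_const_mul, integral_add i3 i4]
      ring
    have h7 : (Z M)⁻¹ * ‖∫ x in Om ρ, (((ρ x ^ j : ℝ) : ℂ) * F x * (A M x * conj (B M x)) -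
        F p * (((ρ x ^ j : ℝ) : ℂ) * (A M x * conj (B M x))))‖ ≤
        (ε / (2 * Q)) * ((Z M)⁻¹ * (∫ x in Om ρ, ρ x ^ j * ‖A M x‖ ^ 2) +
        (Z M)⁻¹ * ∫ x in Om ρ, ρ x ^ j * ‖B M x‖ ^ 2) := by
      rw [← h6]
      exact mul_le_mul_of_nonneg_left h5 (inv_nonneg.2 hZ0.le)
    refine lt_of_le_of_lt h7 ?_
    have h8 : (Z M)⁻¹ * (∫ x in Om ρ, ρ x ^ j * ‖A M x‖ ^ 2) +
        (Z M)⁻¹ * ∫ x in Om ρ, ρ x ^ j * ‖B M x‖ ^ 2 ≤ Q := by rw [hQ]; linarith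
    calc (ε / (2 * Q)) * ((Z M)⁻¹ * (∫ x in Om ρ, ρ x ^ j * ‖A M x‖ ^ 2) +
        (Z M)⁻¹ * ∫ x in Om ρ, ρ x ^ j * ‖B M x‖ ^ 2) ≤ (ε / (2 * Q)) * Q := by gcongr
      _ = ε / 2 := by field_simp
      _ < ε := by linarith
  have h9 := hdiff.add (hm.const_mul (F p))
  rw [zero_add] at h9
  refine h9.congr fun M => ?_
  ring

/-- The limits of the normalised forms. -/
theorem lim_Xi {ρ : V n → ℝ} (hD : Dom ρ) {s : MF n} {A : Cn n N} {p : V n} (hp : ρ p = 0)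
    {Θ : V n → ℂ} {η : Fin N → ℂ} {j : ℕ} {U : ℕ → V n → Fin N → ℂ} {Z : ℕ → ℝ} {c : ℕ → ℕ}
    (h : ∀ M : ℕ, CorV ρ s A p Θ η j (1 / ((M : ℝ) + 1)) (U M) (Z M) (c M))
    {F : V n → ℂ} (hF : ContinuousOn F (closure (Om ρ))) (i i' : Id n N) :
    Tendsto (fun M => ((Z M : ℝ) : ℂ)⁻¹ * ∫ x in Om ρ, ((ρ x ^ j : ℝ) : ℂ) * F x *
      (Xi (c M : ℂ) (U M) i x * conj (Xi (c M : ℂ) (U M) i' x))) atTop
      (𝓝 (F p * (sy Θ η i p * conj (sy Θ η i' p)))) := by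
  have hml : ∀ a b, Tendsto (fun M => ((Z M : ℝ) : ℂ)⁻¹ * ∫ x in Om ρ, ((ρ x ^ j : ℝ) : ℂ) *
      (Xi (c M : ℂ) (U M) a x * conj (Xi (c M : ℂ) (U M) b x))) atTop
      (𝓝 (sy Θ η a p * conj (sy Θ η b p))) := by
    intro a b
    rw [tendsto_iff_norm_sub_tendsto_zero]
    exact squeeze_zero (fun M => norm_nonneg _) (fun M => (h M).2.2.2.2.2.2 a b)
      tendsto_one_div_add_atTop_nhds_zero_nat
  exact lim_FG hD hp (fun M => Xi_continuous (h M).1 _ i) (fun M => Xi_continuous (h M).1 _ i')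
    (fun M => Xi_zero_off Metric.isClosed_closedBall (h M).2.2.1 _ i) (fun M => (h M).2.1)
    (hml i i') (hml i i) (hml i' i') hF

end Vale.Agent.P088.R2.H867
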