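import Vale.Agent.P088.R2.H551.B.Spec
import Vale.Agent.P088.R2.H867.VLim

/-!
# P088: row QU of `H551/B/Spec` (quasimodes of a general pair at a boundary point)
-/

open MeasureTheory Set Filter Topology
open scoped ContDiff Matrix ComplexConjugate

noncomputable section

namespace Vale.Agent.P088.R2.H867

open Vale.Agent.P088.LR Vale.Agent.P088.LR.B Vale.Agent.P088.R2.H381
open Vale.Agent.P088.LR.U (lav)

variable {n N : ℕ}

theorem Xi_zero {c : ℂ} (U : V n → Fin N → ℂ) (l : Fin N) (x : V n) :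
    Xi c U (none, none, l) x = c * U x l := rfl

theorem Xi_grad {c : ℂ} (hc : c ≠ 0) {U : V n → Fin N → ℂ} (hU : ContDiff ℝ ∞ U) (a : Fin n)
    (l : Fin N) (x : V n) : Xi c U (some a, none, l) x = pd a U x l := by
  rw [H158.pd_pi (H158.dfa hU x)]
  show c * (c⁻¹ * pd a (fun y => U y l) x) = _
  rw [mul_inv_cancel_left₀ hc]

theorem Xi_hess {c : ℂ} (hc : c ≠ 0) {U : V n → Fin N → ℂ} (hU : ContDiff ℝ ∞ U) (a b : Fin n)
    (l : Fin N) (x : V n) :
    Xi c U (some a, some b, l) x = c⁻¹ * pd a (fun y => pd b U y) x l := by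
  have h1 : ContDiff ℝ ∞ (fun y => pd b U y) := H158.contDiff_pd hU b
  have hUl : ContDiff ℝ ∞ (fun y => U y l) := (contDiff_pi.1 hU) l
  have h2 : (fun y => pd b U y l) = pd b (fun z => U z l) := by
    funext y
    exact H158.pd_pi (H158.dfa hU y) b l
  rw [H158.pd_pi (H158.dfa h1 x), h2]
  show c * (c⁻¹ * pd a (fun y => c⁻¹ * pd b (fun z => U z l) y) x) = _
  rw [mul_inv_cancel_left₀ hc, pd_cmul (H158.contDiff_pd hUl b)]

end Vale.Agent.P088.R2.H867

namespace Vale.Agent.P088.PJ.Bd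

open Vale.Agent.P088.LR Vale.Agent.P088.LR.B Vale.Agent.P088.LR.U Vale.Agent.P088.R2.H867

/-- **Row QU.** -/
theorem rowQU : RowQU := by
  intro n N ρ hD s A₁ hs hpos hA p hp τ hτ hτp
  obtain ⟨β, Θ, k, G, e, g, hβ, hB, hΘ, hk, hk0, hre, hpd, hG, hpG, hPh⟩ :=
    phase hD hs hpos hp hτ hτp
  have hsym : ∀ x, (s x).IsSymm := fun x => R2.H381.symm_of (hpos x)
  have hpz : ∀ a, pd a Θ p = zt ρ p τ β a := hpd
  refine ⟨β, hβ, ?_, fun η j => ?_⟩
  · rw [← hB]
    unfold LR.H705.B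
    refine Finset.sum_congr rfl fun i _ => Finset.sum_congr rfl fun i' _ => ?_
    rw [hpz, hpz]
    ring
  have hcore : ∀ m : ℕ, ∃ (U : V n → Fin N → ℂ) (Z : ℝ) (M : ℕ),
      CorV ρ s A₁ p Θ η j (1 / ((m : ℝ) + 1)) U Z M := fun m =>
    coreV hD hs hA hp hΘ hk hk0 hre hG hpG η (fun S hS hSG χ hχ hχ0 K =>
      quasiV_bd hs hsym hA hS (hPh S hSG) ⟨hχ, hχ0⟩ η K) j (by positivity)
  choose U Z c hUZ using hcore
  have hUs : ∀ m, ContDiff ℝ ∞ (U m) := fun m => (hUZ m).1
  have hc0 : ∀ m, (c m : ℂ) ≠ 0 := fun m => by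
    have h1 := (hUZ m).2.2.2.1
    exact_mod_cast (by omega : c m ≠ 0)
  have hcl : Tendsto (fun m => ((c m : ℂ))⁻¹) atTop (𝓝 0) := by
    rw [tendsto_zero_iff_norm_tendsto_zero]
    refine squeeze_zero (fun m => norm_nonneg _) (fun m => ?_)
      tendsto_one_div_add_atTop_nhds_zero_nat
    rw [norm_inv, Complex.norm_natCast]
    exact (hUZ m).2.2.2.2.1
  refine ⟨U, Z, hUs, fun m => (hUZ m).2.1, ?_, fun F hF l l' => ⟨fun a b => ?_, fun a b => ?_,
    fun a => ?_, ?_⟩⟩
  · refine squeeze_zero (fun m => ?_) (fun m => (hUZ m).2.2.2.2.2.1)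
      tendsto_one_div_add_atTop_nhds_zero_nat
    exact mul_nonneg (inv_nonneg.2 (hUZ m).2.1.le)
      (integral_nonneg fun x => Finset.sum_nonneg fun l _ => by positivity)
  · have h1 := lim_Xi hD hp hUZ hF (some a, none, l) (some b, none, l')
    have e1 : F p * (sy Θ η (some a, none, l) p * conj (sy Θ η (some b, none, l') p)) =
        F p * (zt ρ p τ β a * star (zt ρ p τ β b)) * (η l * star (η l')) := by
      show F p * ((pd a Θ p * (1 * η l)) * conj (pd b Θ p * (1 * η l'))) = _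
      rw [hpz, hpz, map_mul, map_mul, map_one]
      show _ = F p * (zt ρ p τ β a * conj (zt ρ p τ β b)) * (η l * conj (η l'))
      ring
    rw [e1] at h1
    refine h1.congr fun m => ?_
    congr 1
    refine integral_congr_ae (Eventually.of_forall fun x => ?_)
    show _ * (Xi (c m : ℂ) (U m) (some a, none, l) x *
      conj (Xi (c m : ℂ) (U m) (some b, none, l') x)) = _
    rw [Xi_grad (hc0 m) (hUs m), Xi_grad (hc0 m) (hUs m)]
    rfl
  · have h1 := lim_Xi hD hp hUZ hF (some a, some b, l) (none, none, l')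
    have e1 : F p * (sy Θ η (some a, some b, l) p * conj (sy Θ η (none, none, l') p)) =
        F p * (zt ρ p τ β a * zt ρ p τ β b) * (η l * star (η l')) := by
      show F p * ((pd a Θ p * (pd b Θ p * η l)) * conj (1 * (1 * η l'))) = _
      rw [hpz, hpz, map_mul, map_mul, map_one]
      show _ = F p * (zt ρ p τ β a * zt ρ p τ β b) * (η l * conj (η l'))
      ring
    rw [e1] at h1
    refine h1.congr fun m => ?_
    congr 1
    refine integral_congr_ae (Eventually.of_forall fun x => ?_)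
    show _ * (Xi (c m : ℂ) (U m) (some a, some b, l) x *
      conj (Xi (c m : ℂ) (U m) (none, none, l') x)) = _
    rw [Xi_hess (hc0 m) (hUs m), Xi_zero, map_mul, Complex.conj_natCast]
    have h2 := inv_mul_cancel₀ (hc0 m)
    show _ = ((ρ x ^ j : ℝ) : ℂ) * F x *
      (pd a (fun y => pd b (U m) y) x l * conj (U m x l'))
    linear_combination (((ρ x ^ j : ℝ) : ℂ) * F x *
      (pd a (fun y => pd b (U m) y) x l * conj (U m x l'))) * h2
  · have h1 := lim_Xi hD hp hUZ hF (some a, none, l) (none, none, l')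
    have h2 := hcl.mul h1
    rw [zero_mul] at h2
    refine h2.congr fun m => ?_
    rw [mul_left_comm]
    congr 1
    rw [← integral_const_mul]
    refine integral_congr_ae (Eventually.of_forall fun x => ?_)
    show ((c m : ℂ))⁻¹ * (_ * (Xi (c m : ℂ) (U m) (some a, none, l) x *
      conj (Xi (c m : ℂ) (U m) (none, none, l') x))) = _
    rw [Xi_grad (hc0 m) (hUs m), Xi_zero, map_mul, Complex.conj_natCast]
    have h3 := inv_mul_cancel₀ (hc0 m)
    show _ = ((ρ x ^ j : ℝ) : ℂ) * F x * (pd a (U m) x l * conj (U m x l'))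
    linear_combination (((ρ x ^ j : ℝ) : ℂ) * F x * (pd a (U m) x l * conj (U m x l'))) * h3
  · have h1 := lim_Xi hD hp hUZ hF (none, none, l) (none, none, l')
    have h2 := hcl.mul (hcl.mul h1)
    rw [zero_mul] at h2
    refine h2.congr fun m => ?_
    rw [mul_left_comm ((c m : ℂ))⁻¹ ((Z m : ℝ) : ℂ)⁻¹, mul_left_comm ((c m : ℂ))⁻¹ ((Z m : ℝ) : ℂ)⁻¹]
    congr 1
    rw [← integral_const_mul, ← integral_const_mul]
    refine integral_congr_ae (Eventually.of_forall fun x => ?_)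
    show ((c m : ℂ))⁻¹ * (((c m : ℂ))⁻¹ * (_ * (Xi (c m : ℂ) (U m) (none, none, l) x *
      conj (Xi (c m : ℂ) (U m) (none, none, l') x)))) = _
    rw [Xi_zero, Xi_zero, map_mul, Complex.conj_natCast]
    have h3 := inv_mul_cancel₀ (hc0 m)
    show _ = ((ρ x ^ j : ℝ) : ℂ) * F x * (U m x l * conj (U m x l'))
    linear_combination (((ρ x ^ j : ℝ) : ℂ) * F x * (U m x l * conj (U m x l')) *
      (((c m : ℂ))⁻¹ * (c m : ℂ) + 1)) * h3

end Vale.Agent.P088.PJ.Bd
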