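import Vale.Agent.P088.R2.H381.QBd
import Vale.Agent.P088.H599.J.Defs

/-!
# P088, boundary quasimodes for pairs (metric, connection): the recursion

Vector families are `Y : Fin N → ℕ → V n → ℂ`, every component in the module `Mo` of `H381`.
-/

open MeasureTheory Set Filter Topology
open scoped ContDiff Matrix

noncomputable section

namespace Vale.Agent.P088.R2.H867

open Vale.Agent.P088.LR Vale.Agent.P088.LR.B Vale.Agent.P088.LR.H705 Vale.Agent.P088.R2.H381
open Vale.Agent.P088.LR.U (lav)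

variable {n N : ℕ}

/-! ### multiplication by smooth functions and by `1 / λ` -/

/-- `c W`. -/
def sm (c : V n → ℂ) (W : ℕ → V n → ℂ) : ℕ → V n → ℂ := fun M x => c x * W M x

/-- `λ^{-1} W`. -/
def dn (W : ℕ → V n → ℂ) : ℕ → V n → ℂ := fun M x => (lm M)⁻¹ * W M x

theorem Mo_sm {Θ r : V n → ℂ} {S : Set (V n)} {q : ℕ} {c : V n → ℂ} (hc : ContDiff ℝ ∞ c)
    {W : ℕ → V n → ℂ} (hW : W ∈ Mo Θ r S q) : sm c W ∈ Mo Θ r S q := by
  induction hW using Submodule.span_induction with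
  | mem W hW =>
    obtain ⟨q', l, f, hq, hf, rfl⟩ := hW
    have e : sm c (gen Θ r q' l f) = gen Θ r q' l (fun x => c x * f x) := by
      funext M x
      simp only [sm, gen]
      ring
    rw [e]
    exact gen_mem hq (Sp_mul_left hc hf)
  | zero =>
    have e : sm c (0 : ℕ → V n → ℂ) = 0 := by
      funext M x
      simp [sm]
    rw [e]
    exact Submodule.zero_mem _
  | add W₁ W₂ _ _ h₁ h₂ =>
    have e : sm c (W₁ + W₂) = sm c W₁ + sm c W₂ := by
      funext M x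
      simp only [sm, Pi.add_apply]
      ring
    rw [e]
    exact Submodule.add_mem _ h₁ h₂
  | smul a W _ h =>
    have e : sm c (a • W) = a • sm c W := by
      funext M x
      simp only [sm, Pi.smul_apply, smul_eq_mul]
      ring
    rw [e]
    exact Submodule.smul_mem _ _ h

theorem Mo_dn {Θ r : V n → ℂ} {S : Set (V n)} {q : ℕ} {W : ℕ → V n → ℂ}
    (hW : W ∈ Mo Θ r S q) : dn W ∈ Mo Θ r S (q + 1) := by
  induction hW using Submodule.span_induction with
  | mem W hW =>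
    obtain ⟨q', l, f, hq, hf, rfl⟩ := hW
    have e : dn (gen Θ r q' l f) = gen Θ r (q' + 1) l f := by
      funext M x
      simp only [dn, gen]
      ring
    rw [e]
    exact gen_mem (by omega) hf
  | zero =>
    have e : dn (0 : ℕ → V n → ℂ) = 0 := by
      funext M x
      simp [dn]
    rw [e]
    exact Submodule.zero_mem _
  | add W₁ W₂ _ _ h₁ h₂ =>
    have e : dn (W₁ + W₂) = dn W₁ + dn W₂ := by
      funext M x
      simp only [dn, Pi.add_apply]
      ring
    rw [e]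
    exact Submodule.add_mem _ h₁ h₂
  | smul a W _ h =>
    have e : dn (a • W) = a • dn W := by
      funext M x
      simp only [dn, Pi.smul_apply, smul_eq_mul]
      ring
    rw [e]
    exact Submodule.smul_mem _ _ h

/-! ### the operator in components -/

theorem cd_apply {A : Cn n N} {u : V n → Fin N → ℂ} (hu : ContDiff ℝ ∞ u) (j : Fin n) (y : V n)
    (l : Fin N) : cd A j u y l = pd j (fun z => u z l) y + ∑ m, A j y l m * u y m := by
  unfold cd
  rw [Pi.add_apply, H158.pd_pi (H158.dfa hu y)]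
  rfl

theorem csm {s : MF n} (hs : SmM s) (i j : Fin n) : ContDiff ℝ ∞ fun y => ((s y i j : ℝ) : ℂ) :=
  Complex.ofRealCLM.contDiff.comp (hs i j)

theorem lav_apply {s : MF n} (hs : SmM s) {A : Cn n N} (hA : SmU A) {u : V n → Fin N → ℂ}
    (hu : ContDiff ℝ ∞ u) (x : V n) (l : Fin N) :
    lav s A u x l = dv s (fun y => u y l) x +
      ∑ i, (pd i (fun y => ∑ j, ∑ m, ((s y i j : ℂ) * A j y l m) * u y m) x +
        ∑ j, ∑ m, (((s x i j : ℂ) * A i x l m) * pd j (fun y => u y m) x +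
          ∑ m', ((s x i j : ℂ) * A i x l m * A j x m m') * u x m')) := by
  have hF : ∀ i, ContDiff ℝ ∞ (fun y => ∑ j, (s y i j : ℂ) • cd A j u y) := fun i =>
    ContDiff.sum fun j _ => (csm hs i j).smul (H158.contDiff_cd hA hu j)
  have hul : ∀ m, ContDiff ℝ ∞ fun y => u y m := fun m => (contDiff_pi.1 hu) m
  have hG : ∀ i, ContDiff ℝ ∞ (fun y => ∑ j, ∑ m, ((s y i j : ℂ) * A j y l m) * u y m) := fun i =>
    ContDiff.sum fun j _ => ContDiff.sum fun m _ => ((csm hs i j).mul (hA.1 j l m)).mul (hul m)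
  have hFl : ∀ i y m, (∑ j, (s y i j : ℂ) • cd A j u y) m = flx s (fun z => u z m) i y +
      ∑ j, ∑ m', ((s y i j : ℂ) * A j y m m') * u y m' := by
    intro i y m
    rw [Finset.sum_apply]
    unfold flx
    rw [← Finset.sum_add_distrib]
    refine Finset.sum_congr rfl fun j _ => ?_
    rw [Pi.smul_apply, cd_apply hu, smul_eq_mul, mul_add, Finset.mul_sum]
    congr 1
    exact Finset.sum_congr rfl fun m' _ => by ring
  have h1 : ∀ i, cd A i (fun y => ∑ j, (s y i j : ℂ) • cd A j u y) x l =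
      pd i (flx s (fun y => u y l) i) x +
      (pd i (fun y => ∑ j, ∑ m, ((s y i j : ℂ) * A j y l m) * u y m) x +
        ∑ j, ∑ m, (((s x i j : ℂ) * A i x l m) * pd j (fun y => u y m) x +
          ∑ m', ((s x i j : ℂ) * A i x l m * A j x m m') * u x m')) := by
    intro i
    rw [cd_apply (hF i)]
    have e1 : (fun z => (∑ j, (s z i j : ℂ) • cd A j u z) l) = fun z =>
        flx s (fun z => u z l) i z + ∑ j, ∑ m', ((s z i j : ℂ) * A j z l m') * u z m' := by
      funext z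
      exact hFl i z l
    rw [e1, H158.pd_add (H158.dfa (contDiff_flx hs (hul l) i) x) (H158.dfa (hG i) x), add_assoc]
    congr 2
    simp only [hFl]
    rw [Finset.sum_comm]
    refine Finset.sum_congr rfl fun m _ => ?_
    unfold flx
    rw [← Finset.sum_add_distrib, Finset.mul_sum]
    refine Finset.sum_congr rfl fun j _ => ?_
    rw [mul_add, Finset.mul_sum]
    congr 1
    · ring
    · exact Finset.sum_congr rfl fun m' _ => by ring
  unfold lav
  rw [Finset.sum_apply]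
  simp only [h1]
  rw [Finset.sum_add_distrib]
  rfl

theorem lav_sub {s : MF n} (hs : SmM s) {A : Cn n N} (hA : SmU A) {u v : V n → Fin N → ℂ}
    (hu : ContDiff ℝ ∞ u) (hv : ContDiff ℝ ∞ v) (x : V n) :
    lav s A (fun y => u y - v y) x = lav s A u x - lav s A v x := by
  have hF : ∀ {w : V n → Fin N → ℂ}, ContDiff ℝ ∞ w → ∀ i,
      ContDiff ℝ ∞ (fun y => ∑ j, (s y i j : ℂ) • cd A j w y) := fun hw i =>
    ContDiff.sum fun j _ => (csm hs i j).smul (H158.contDiff_cd hA hw j)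
  unfold lav
  rw [← Finset.sum_sub_distrib]
  refine Finset.sum_congr rfl fun i _ => ?_
  rw [← H158.cd_sub A (hF hu i) (hF hv i)]
  congr 1
  funext y
  rw [← Finset.sum_sub_distrib]
  refine Finset.sum_congr rfl fun j _ => ?_
  rw [H158.cd_sub A hu hv, smul_sub]

/-! ### vector families -/

/-- The vector function of a family. -/
def vec (Y : Fin N → ℕ → V n → ℂ) (M : ℕ) (x : V n) : Fin N → ℂ := fun l => Y l M x

/-- `λ^{-2} L Y`. -/
def Lv (s : MF n) (A : Cn n N) (Y : Fin N → ℕ → V n → ℂ) (l : Fin N) : ℕ → V n → ℂ :=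
  fun M x => (lm M)⁻¹ ^ 2 * lav s A (vec Y M) x l

theorem vec_contDiff {Θ r : V n → ℂ} (hΘ : ContDiff ℝ ∞ Θ) (hr : ContDiff ℝ ∞ r) {S : Set (V n)}
    {q : ℕ} {Y : Fin N → ℕ → V n → ℂ} (hY : ∀ l, Y l ∈ Mo Θ r S q) (M : ℕ) :
    ContDiff ℝ ∞ (vec Y M) := contDiff_pi.2 fun l => (Mo_Sp hΘ hr (hY l) M).1

/-- The operator is `λ^{-2} div (s ∇ ·)` on the components modulo terms of the next order. -/
theorem Lv_Lo {s : MF n} (hs : SmM s) {A : Cn n N} (hA : SmU A) {S : Set (V n)} (hS : IsClosed S)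
    {Θ r : V n → ℂ} (hΘ : ContDiff ℝ ∞ Θ) (hr : ContDiff ℝ ∞ r) {q : ℕ}
    {Y : Fin N → ℕ → V n → ℂ} (hY : ∀ l, Y l ∈ Mo Θ r S q) (l : Fin N) :
    Lv s A Y l - Lo s (Y l) ∈ Mo Θ r S (q + 1) := by
  have hd2 : ∀ m, dn (dn (Y m)) ∈ Mo Θ r S (q + 2) := fun m => Mo_dn (Mo_dn (hY m))
  have hpd : ∀ {W : ℕ → V n → ℂ}, W ∈ Mo Θ r S (q + 2) → ∀ i,
      (fun M => pd i (W M)) ∈ Mo Θ r S (q + 1) := fun hW i => Mo_pd hS hΘ hr i hW
  set G : Fin n → ℕ → V n → ℂ := fun i => ∑ j, ∑ m,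
    sm (fun y => (s y i j : ℂ) * A j y l m) (dn (dn (Y m))) with hG
  have hGm : ∀ i, G i ∈ Mo Θ r S (q + 2) := fun i =>
    Submodule.sum_mem _ fun j _ => Submodule.sum_mem _ fun m _ =>
      Mo_sm ((csm hs i j).mul (hA.1 j l m)) (hd2 m)
  have e : Lv s A Y l - Lo s (Y l) = ∑ i, ((fun M => pd i (G i M)) + ∑ j, ∑ m,
      (sm (fun x => (s x i j : ℂ) * A i x l m) (fun M => pd j (dn (dn (Y m)) M)) +
        ∑ m', sm (fun x => (s x i j : ℂ) * A i x l m * A j x m m') (dn (dn (Y m'))))) := by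
    funext M x
    have hYs : ∀ m, ContDiff ℝ ∞ (Y m M) := fun m => (Mo_Sp hΘ hr (hY m) M).1
    have hpG : ∀ i, pd i (G i M) x = (lm M)⁻¹ ^ 2 *
        pd i (fun y => ∑ j, ∑ m, ((s y i j : ℂ) * A j y l m) * Y m M y) x := by
      intro i
      rw [← pd_cmul (ContDiff.sum fun j _ => ContDiff.sum fun m _ =>
        ((csm hs i j).mul (hA.1 j l m)).mul (hYs m))]
      congr 1
      funext y
      simp only [hG, Finset.sum_apply, sm, dn, Finset.mul_sum]
      refine Finset.sum_congr rfl fun j _ => Finset.sum_congr rfl fun m _ => ?_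
      ring
    have hpY : ∀ j m, pd j (dn (dn (Y m)) M) x = (lm M)⁻¹ ^ 2 * pd j (Y m M) x := by
      intro j m
      rw [← pd_cmul (hYs m)]
      congr 1
      funext y
      simp only [dn]
      ring
    have h0 : (Lv s A Y l - Lo s (Y l)) M x = (lm M)⁻¹ ^ 2 * (lav s A (vec Y M) x l -
        dv s (Y l M) x) := by
      simp only [Pi.sub_apply, Lv, Lo]
      ring
    have h1 : (fun y => vec Y M y l) = Y l M := rfl
    rw [h0, lav_apply hs hA (vec_contDiff hΘ hr hY M), h1, add_sub_cancel_left, Finset.mul_sum,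
      Finset.sum_apply, Finset.sum_apply]
    refine Finset.sum_congr rfl fun i _ => ?_
    simp only [Pi.add_apply, Finset.sum_apply, hpG, sm, hpY, mul_add, Finset.mul_sum, dn]
    congr 1
    refine Finset.sum_congr rfl fun j _ => Finset.sum_congr rfl fun m _ => ?_
    congr 1
    · show (lm M)⁻¹ ^ 2 * ((s x i j : ℂ) * A i x l m * pd j (Y m M) x) = _
      ring
    · refine Finset.sum_congr rfl fun m' _ => ?_
      show (lm M)⁻¹ ^ 2 * ((s x i j : ℂ) * A i x l m * A j x m m' * Y m' M x) = _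
      ring
  rw [e]
  refine Submodule.sum_mem _ fun i _ => Submodule.add_mem _ (hpd (hGm i) i) ?_
  refine Submodule.sum_mem _ fun j _ => Submodule.sum_mem _ fun m _ => Submodule.add_mem _ ?_ ?_
  · exact Mo_sm ((csm hs i j).mul (hA.1 i l m)) (hpd (hd2 m) j)
  · exact Submodule.sum_mem _ fun m' _ =>
      Mo_mono (by omega) (Mo_sm (((csm hs i j).mul (hA.1 i l m)).mul (hA.1 j m m')) (hd2 m'))

theorem Lv_sub {s : MF n} (hs : SmM s) {A : Cn n N} (hA : SmU A) {S : Set (V n)}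
    {Θ r : V n → ℂ} (hΘ : ContDiff ℝ ∞ Θ) (hr : ContDiff ℝ ∞ r) {q q' : ℕ}
    {Y X : Fin N → ℕ → V n → ℂ} (hY : ∀ l, Y l ∈ Mo Θ r S q) (hX : ∀ l, X l ∈ Mo Θ r S q')
    (l : Fin N) : Lv s A (Y - X) l = Lv s A Y l - Lv s A X l := by
  funext M x
  have h1 : vec (Y - X) M = fun y => vec Y M y - vec X M y := rfl
  show (lm M)⁻¹ ^ 2 * lav s A (vec (Y - X) M) x l = (lm M)⁻¹ ^ 2 * lav s A (vec Y M) x l -
    (lm M)⁻¹ ^ 2 * lav s A (vec X M) x l
  rw [h1, lav_sub hs hA (vec_contDiff hΘ hr hY M) (vec_contDiff hΘ hr hX M), Pi.sub_apply]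
  ring

/-- Solution of the leading part, vector version. -/
theorem solveV {s : MF n} (hs : SmM s) (hsym : ∀ x, (s x).IsSymm) {A : Cn n N} (hA : SmU A)
    {S : Set (V n)} (hS : IsClosed S) {Θ r e g : V n → ℂ} (h : Ph s Θ r S e g) (q : ℕ)
    {W : Fin N → ℕ → V n → ℂ} (hW : ∀ l, W l ∈ Mo Θ r S q) :
    ∃ Y : Fin N → ℕ → V n → ℂ, (∀ l, Y l ∈ Mo Θ r S q) ∧
      ∀ l, Lv s A Y l - W l ∈ Mo Θ r S (q + 1) := by
  choose Y hY hY' using fun l => solve hs hsym hS h q (hW l)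
  refine ⟨Y, hY, fun l => ?_⟩
  have e : Lv s A Y l - W l = (Lv s A Y l - Lo s (Y l)) + (Lo s (Y l) - W l) := by abel
  rw [e]
  exact Submodule.add_mem _ (Lv_Lo hs hA hS h.hΘ h.hr hY l) (hY' l)

/-- The quasimodes. -/
theorem quasiV {s : MF n} (hs : SmM s) (hsym : ∀ x, (s x).IsSymm) {A : Cn n N} (hA : SmU A)
    {S : Set (V n)} (hS : IsClosed S) {Θ r e g : V n → ℂ} (h : Ph s Θ r S e g)
    {χ : Fin N → V n → ℂ} (hχ : ∀ l, Sp S (χ l)) (K : ℕ) :
    ∃ W : Fin N → ℕ → V n → ℂ, (∀ l, W l - gen Θ r 0 0 (χ l) ∈ Mo Θ r S 1) ∧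
      (∀ l, W l ∈ Mo Θ r S 0) ∧ ∀ l, Lv s A W l ∈ Mo Θ r S (K + 1) := by
  induction K with
  | zero =>
    choose W h1 h2 h3 using fun l => quasi hs hsym hS h (hχ l) 0
    refine ⟨W, h1, h2, fun l => ?_⟩
    have e : Lv s A W l = (Lv s A W l - Lo s (W l)) + Lo s (W l) := by abel
    rw [e]
    exact Submodule.add_mem _ (Lv_Lo hs hA hS h.hΘ h.hr h2 l) (h3 l)
  | succ K ih =>
    obtain ⟨W, hW1, hW0, hWL⟩ := ih
    obtain ⟨Y, hY, hY'⟩ := solveV hs hsym hA hS h (K + 1) hWL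
    refine ⟨W - Y, fun l => ?_, fun l => ?_, fun l => ?_⟩
    · have e : (W - Y) l - gen Θ r 0 0 (χ l) = (W l - gen Θ r 0 0 (χ l)) - Y l := by
        rw [Pi.sub_apply]
        abel
      rw [e]
      exact Submodule.sub_mem _ (hW1 l) (Mo_mono (by omega) (hY l))
    · exact Submodule.sub_mem _ (hW0 l) (Mo_mono (Nat.zero_le _) (hY l))
    · rw [Lv_sub hs hA h.hΘ h.hr hW0 hY]
      have e : Lv s A W l - Lv s A Y l = -(Lv s A Y l - Lv s A W l) := by abel
      rw [e]
      exact Submodule.neg_mem _ (hY' l)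

end Vale.Agent.P088.R2.H867
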